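import Vale.Agent.P084.Ext

namespace Vale.Agent.Results.P084.SupSumWithLine

open Metric

universe u v

/-- The Mazur-Ulam property of a real normed space `X`: for every real Banach space `Y`, every
surjective isometry of the unit sphere of `X` onto the unit sphere of `Y` is the restriction of a
real-linear isometry of `X` onto `Y`. -/
def MazurUlamProperty (X : Type u) [NormedAddCommGroup X] [NormedSpace ℝ X] : Prop :=
  ∀ (Y : Type v) [NormedAddCommGroup Y] [NormedSpace ℝ Y] [CompleteSpace Y]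
    (f : sphere (0 : X) 1 → sphere (0 : Y) 1),
    Function.Surjective f → (∀ x y, ‖(f x : Y) - f y‖ = ‖(x : X) - y‖) →
    ∃ T : X ≃ₗᵢ[ℝ] Y, ∀ x : sphere (0 : X) 1, T x = f x

theorem mup_prod_real (Z : Type u) [NormedAddCommGroup Z] [NormedSpace ℝ Z] :
    MazurUlamProperty.{u, v} (Z × ℝ) := by
  intro Y _ _ _ f hs hf
  have hf' : Isometry f := by
    apply Isometry.of_dist_eq
    intro x y
    rw [Subtype.dist_eq, Subtype.dist_eq, dist_eq_norm, dist_eq_norm]
    exact hf x y
  exact Vale.Agent.P084.extension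
    (IsometryEquiv.mk (Equiv.ofBijective f ⟨hf'.injective, hs⟩) hf')

/-- (1) For every real Banach space `Z` the space `Z × ℝ` with the norm
`‖(z,t)‖ = max ‖z‖ |t|` has the Mazur-Ulam property.
(2) Consequently every nonzero real Banach space `X` is linearly isomorphic, with Banach-Mazur
distance at most `3`, to a Banach space `E` with the Mazur-Ulam property; equivalently `X` has an
equivalent norm `|||x||| = ‖e x‖` with `|||x||| ≤ ‖x‖ ≤ 3 |||x|||` and this property. -/
theorem result :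
    (∀ (Z : Type u) [NormedAddCommGroup Z] [NormedSpace ℝ Z] [CompleteSpace Z],
      MazurUlamProperty.{u, v} (Z × ℝ)) ∧
    (∀ (X : Type u) [NormedAddCommGroup X] [NormedSpace ℝ X] [CompleteSpace X] [Nontrivial X],
      ∃ (E : Type u) (_ : NormedAddCommGroup E) (_ : NormedSpace ℝ E) (_ : CompleteSpace E)
        (e : X ≃ₗ[ℝ] E), MazurUlamProperty.{u, v} E ∧
          ∀ x, ‖e x‖ ≤ ‖x‖ ∧ ‖x‖ ≤ 3 * ‖e x‖) := by
  refine ⟨fun Z _ _ _ => mup_prod_real Z, ?_⟩
  intro X _ _ _ _
  obtain ⟨x₁, hx₁⟩ := exists_ne (0 : X)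
  have hx₁n : ‖x₁‖ ≠ 0 := norm_ne_zero_iff.2 hx₁
  obtain ⟨φ, hφ, hφx⟩ := exists_dual_vector ℝ x₁ hx₁n
  set x₀ : X := ‖x₁‖⁻¹ • x₁ with hx₀
  have hx₀n : ‖x₀‖ = 1 := by
    rw [hx₀, norm_smul, norm_inv, norm_norm, inv_mul_cancel₀ hx₁n]
  have hφx₀ : φ x₀ = 1 := by
    have h : φ x₁ = ‖x₁‖ := by simpa using hφx
    rw [hx₀, map_smul, h, smul_eq_mul, inv_mul_cancel₀ hx₁n]
  have hφle : ∀ x, ‖φ x‖ ≤ ‖x‖ := by
    intro x
    have := φ.le_opNorm x
    rwa [hφ, one_mul] at this
  let Z : Submodule ℝ X := LinearMap.ker (φ : X →ₗ[ℝ] ℝ)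
  have hZmem : ∀ x, x ∈ Z ↔ φ x = 0 := fun x => LinearMap.mem_ker
  -- forward map
  let A : X →ₗ[ℝ] (Z × ℝ) :=
    { toFun := fun x => (⟨(1 / 2 : ℝ) • (x - φ x • x₀), by
        rw [hZmem, map_smul, map_sub, map_smul, hφx₀]; simp⟩, φ x)
      map_add' := by
        intro x y
        refine Prod.ext (Subtype.ext ?_) ?_
        · simp only [map_add, Prod.fst_add, Submodule.coe_add]
          module
        · simp
      map_smul' := by
        intro c x
        refine Prod.ext (Subtype.ext ?_) ?_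
        · simp only [map_smul, smul_eq_mul, RingHom.id_apply, Prod.smul_fst, Submodule.coe_smul]
          module
        · simp }
  let B : (Z × ℝ) →ₗ[ℝ] X :=
    { toFun := fun p => (2 : ℝ) • (p.1 : X) + p.2 • x₀
      map_add' := by
        intro p q
        simp only [Prod.fst_add, Prod.snd_add, Submodule.coe_add]
        module
      map_smul' := by
        intro c p
        simp only [Prod.smul_fst, Prod.smul_snd, Submodule.coe_smul, smul_eq_mul,
          RingHom.id_apply]
        module }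
  have hA : ∀ x, ‖A x‖ ≤ 1 * ‖x‖ := by
    intro x
    rw [one_mul, Prod.norm_def]
    apply max_le
    · change ‖(1 / 2 : ℝ) • (x - φ x • x₀)‖ ≤ ‖x‖
      rw [norm_smul]
      have h1 : ‖x - φ x • x₀‖ ≤ 2 * ‖x‖ := by
        refine (norm_sub_le _ _).trans ?_
        rw [norm_smul, hx₀n, mul_one]
        linarith [hφle x]
      norm_num
      linarith
    · exact hφle x
  have hB : ∀ p, ‖B p‖ ≤ 3 * ‖p‖ := by
    intro p
    change ‖(2 : ℝ) • (p.1 : X) + p.2 • x₀‖ ≤ 3 * ‖p‖
    refine (norm_add_le _ _).trans ?_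
    rw [norm_smul, norm_smul, hx₀n, mul_one]
    have h1 : ‖(p.1 : X)‖ ≤ ‖p‖ := norm_fst_le p
    have h2 : ‖p.2‖ ≤ ‖p‖ := norm_snd_le p
    norm_num at h1 h2 ⊢
    linarith
  let e : X ≃ₗ[ℝ] (Z × ℝ) :=
    { toFun := A
      invFun := B
      map_add' := A.map_add
      map_smul' := A.map_smul
      left_inv := by
        intro x
        change (2 : ℝ) • ((1 / 2 : ℝ) • (x - φ x • x₀)) + φ x • x₀ = x
        module
      right_inv := by
        intro p
        have h0 : φ (p.1 : X) = 0 := (hZmem _).1 p.1.2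
        have h1 : φ ((2 : ℝ) • (p.1 : X) + p.2 • x₀) = p.2 := by
          rw [map_add, map_smul, map_smul, h0, hφx₀]; simp
        refine Prod.ext (Subtype.ext ?_) ?_
        · change (1 / 2 : ℝ) • (((2 : ℝ) • (p.1 : X) + p.2 • x₀)
            - φ ((2 : ℝ) • (p.1 : X) + p.2 • x₀) • x₀) = (p.1 : X)
          rw [h1]
          module
        · exact h1 }
  have hZc : IsClosed (Z : Set X) := φ.isClosed_ker
  have : CompleteSpace Z := hZc.completeSpace_coe
  refine ⟨Z × ℝ, inferInstance, inferInstance, inferInstance, e, mup_prod_real Z, ?_⟩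
  intro x
  refine ⟨?_, ?_⟩
  · have h := hA x
    rw [one_mul] at h
    exact h
  have h := hB (e x)
  have h2 : B (e x) = x := e.left_inv x
  rwa [h2] at h

end Vale.Agent.Results.P084.SupSumWithLine
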